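import Vale.Agent.P235U.UDef
import Vale.Agent.P235Q.Asm
import Vale.Agent.P235S.STor

/-! The cone over `A`. Copy the proof of `Ap.apex_embed` (P235Q/ApGraph.lean) with a set `A`: `Ap.glue` gives `d' x y = if lab x = lab y then dU .. else M` with `dist ≤ d'` (the case
`empty` there); `Ap.cone` with `f = r` (`|r x - r y| ≤ dist x y ≤ d' x y`); finally `min (d' x y) (r x + r y) = min (dist x y) (r x + r y)`: for a walk `p` from `x` to `y`, either
`p` avoids `A` and `d' x y ≤ len p` (`Ap.lift_walk`, end of that proof), or `p` meets `A` in `z` and `r x + r y ≤ len p`; use `le_spDist`. -/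

open Set Classical

namespace Vale.Agent.P235.Us

open Ap

variable {V : Type} {G : SimpleGraph V} {ℓ : Sym2 V → ℝ}

theorem cone_part [Fintype V] (hG : G.Connected) (hℓ : ∀ e ∈ G.edgeSet, 0 < ℓ e) (A : Set V)
    {C : ℝ} (hC : 3 ≤ C) (h : ∀ v, v ∉ A →
      EmbedsL1 (spDist (G.induce (Ap.comp G A v)) (Ap.resL ℓ (Ap.comp G A v))) C)
    {r : V → ℝ} (h1 : ∀ x, ∃ q ∈ A, spDist G ℓ x q = r x) (h2 : ∀ x, ∀ q ∈ A, r x ≤ spDist G ℓ x q) :
    EmbedsL1 (fun x y => min (spDist G ℓ x y) (r x + r y)) (240 * C) := by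
  let _ := spMetric hG hℓ
  have hd : ∀ x y, spDist G ℓ x y = dist x y := fun _ _ => rfl
  let dU : Set V → V → V → ℝ := fun U x y =>
    if h : x ∈ U ∧ y ∈ U then spDist (G.induce U) (resL ℓ U) ⟨x, h.1⟩ ⟨y, h.2⟩ else 0
  let lab : V → Set V ⊕ V := fun x => if x ∈ A then .inr x else .inl (comp G A x)
  have l1 : ∀ x U, lab x = .inl U → x ∉ A ∧ comp G A x = U := fun x U e => by
    by_cases hx : x ∈ A <;> simp_all [lab]
  have l2 : ∀ x, x ∈ A → ∀ y, dU (comp G A x) x y = 0 := fun x hx y =>
    dif_neg fun ⟨⟨p, hp⟩, _⟩ => hp x p.start_mem_support hx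
  obtain ⟨M, hM, h0⟩ := glue (d := fun x y => dU (comp G A x) x y) lab hC (fun k => by
    rcases k with U | a
    · by_cases hU : Nonempty {x // lab x = .inl U}
      · obtain ⟨v, hv'⟩ := hU
        obtain ⟨hv, rfl⟩ := l1 v U hv'
        have m : ∀ x : {x // lab x = .inl (comp G A v)}, x.1 ∈ comp G A v := fun x =>
          (l1 x _ x.2).2.subset (comp_self (l1 x _ x.2).1)
        have e : (fun x y : {x // lab x = .inl (comp G A v)} => dU (comp G A x) x y) =
            fun x y => spDist (G.induce (comp G A v)) (resL ℓ _) ⟨x.1, m x⟩ ⟨y.1, m y⟩ := by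
          funext x y
          rw [(l1 x _ x.2).2]
          exact dif_pos ⟨m x, m y⟩
        rw [e]
        exact EmbedsL1.comap (h v hv) fun x : {x // lab x = .inl (comp G A v)} => ⟨x, m x⟩
      · exact emb_zero fun x => (hU ⟨x⟩).elim
    · refine emb_zero fun x y => l2 x ?_ y
      by_contra hx
      simpa [lab, hx] using x.2) (∑ x : V, ∑ y, dist x y)
  have k2 : ∀ x y, dist x y ≤ if lab x = lab y then dU (comp G A x) x y else M := fun x y => by
    split_ifs with e
    · by_cases hx : x ∈ A
      · obtain rfl : x = y := by by_cases hy : y ∈ A <;> simp_all [lab]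
        rw [l2 x hx, dist_self]
      · obtain ⟨hy, e'⟩ := l1 y (comp G A x) (by rw [← e]; exact if_neg hx)
        have m : y ∈ comp G A x := e'.subset (comp_self hy)
        have e2 : dU (comp G A x) x y = spDist (G.induce (comp G A x)) (resL ℓ _)
          ⟨x, comp_self hx⟩ ⟨y, m⟩ := dif_pos ⟨comp_self hx, m⟩
        refine le_trans (le_spDist (comp_conn hx) fun q => ?_) e2.ge
        obtain ⟨p, hp⟩ := down_walk (ℓ := ℓ) q
        exact (spDist_le hℓ p).trans hp.le
    · exact le_trans ((Finset.single_le_sum (f := dist x) (fun _ _ => dist_nonneg)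
        (Finset.mem_univ y)).trans
        (Finset.single_le_sum (f := fun x => ∑ y, dist x y)
          (fun _ _ => Finset.sum_nonneg fun _ _ => dist_nonneg) (Finset.mem_univ x))) hM
  have r0 : ∀ x, 0 ≤ r x := fun x => by
    obtain ⟨q, -, e⟩ := h1 x
    rw [← e, hd]
    exact dist_nonneg
  have r1 : ∀ x y, r x - r y ≤ dist x y := fun x y => by
    obtain ⟨q, hq, e⟩ := h1 y
    have := h2 x q hq
    rw [hd] at this e
    linarith [dist_triangle x y q]
  have k1 := cone h0 (by linarith) r0 fun x y =>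
    (abs_sub_le_iff.2 ⟨r1 x y, (r1 y x).trans_eq (dist_comm y x)⟩).trans (k2 x y)
  have e : (fun x y => min (spDist G ℓ x y) (r x + r y)) = fun x y =>
      min (if lab x = lab y then dU (comp G A x) x y else M) (r x + r y) := by
    funext x y
    refine le_antisymm (min_le_min_right _ (k2 x y))
      (le_min (le_spDist hG fun p => ?_) (min_le_right _ _))
    by_cases hp : ∀ z ∈ p.support, z ∉ A
    · have hx : x ∉ A := hp x p.start_mem_support
      have hy : y ∉ A := hp y p.end_mem_support
      have e : lab x = lab y := by simp only [lab, hx, hy, if_false, comp_eq ⟨p, hp⟩]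
      obtain ⟨q, hq⟩ := lift_walk (ℓ := ℓ) p (comp_walk p hp)
      refine (min_le_left _ _).trans ((if_pos e).trans_le ?_)
      exact (dif_pos ⟨comp_self hx, ⟨p, hp⟩⟩).trans_le ((spDist_le (resL_pos hℓ _) q).trans hq.le)
    · push Not at hp
      obtain ⟨a, ha, hA⟩ := hp
      have e1 := spDist_le hℓ (p.takeUntil a ha)
      have e2 := spDist_le hℓ (p.dropUntil a ha)
      have e3 := congrArg (fun q => (q.edges.map ℓ).sum) (p.take_spec ha)
      simp only [SimpleGraph.Walk.edges_append, List.map_append, List.sum_append] at e3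
      have e4 := h2 x a hA
      have e5 := h2 y a hA
      rw [hd] at e1 e2 e4 e5
      refine (min_le_right _ _).trans ?_
      linarith [dist_comm y a]
  rwa [e]

end Vale.Agent.P235.Us
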