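import Vale.Agent.P235T.TDefs2

/-! Sums of depth one along at most `k` vertices. -/

namespace Vale.Agent.P235

/-- The vertices of `A` with a neighbour in the component `c` of `G - A`. -/
def att {V : Type} (G : SimpleGraph V) (A : Set V) (c : (G.induce Aᶜ).ConnectedComponent) :
    Set V :=
  {q | q ∈ A ∧ ∃ x ∈ c.supp, G.Adj x.1 q}

/-- The torso of `A`: the induced graph, with the attachments of every component of `G - A` made
pairwise adjacent. -/
def tors {V : Type} (G : SimpleGraph V) (A : Set V) : SimpleGraph A :=
  SimpleGraph.fromRel fun x y => G.Adj x.1 y.1 ∨ ∃ c, x.1 ∈ att G A c ∧ y.1 ∈ att G A c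

/-- For some nonempty `A`, the torso of `A` and all components of `G - A` belong to the class `P`,
and every component has at most `k` attachments in `A`. -/
def StarSum {V : Type} (G : SimpleGraph V) (k : ℕ) (P : ∀ W : Type, SimpleGraph W → Prop) : Prop :=
  ∃ A : Set V, A.Nonempty ∧ P _ (tors G A) ∧
    ∀ c : (G.induce Aᶜ).ConnectedComponent, P _ c.toSimpleGraph ∧ (att G A c).ncard ≤ k

/-- The graphs built in at most `n` rounds of sums from graphs almost embedded in a surface. -/
def Rounds (g k : ℕ) : ℕ → ∀ V : Type, SimpleGraph V → Prop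
  | 0 => fun _ G => TreewidthLE G k ∨ EulerGenusLE G g ∨ NearEmb G g k
  | n + 1 => fun V G => Rounds g k n V G ∨ SumOf G k (Rounds g k n) ∨ StarSum G k (Rounds g k n)

end Vale.Agent.P235
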