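import Vale.Agent.P235U.UDef
import Vale.Agent.P235Q.Asm
import Vale.Agent.P235S.STor

/-! Barycentric extension. `f : A → Lp` from `hA`, `f' q = f ⟨q, _⟩` (`0` off `A`). For `x ∉ A`: `a x q = max 0 (2 * r x - dist x q)`, `s x = ∑ q ∈ Q x, a x q ≥ r x > 0`,
`F x = ∑ q ∈ Q x, (a x q / s x) • f' q`; `F x = f' x` on `A`; `ρ x y = ‖F x - F y‖`. (1) For `x ∉ A`, `y ∈ A`: `‖F x - f' y‖ ≤ C * (2 * r x + dist x y)` (convex combination, only
`q` with `dist x q < 2 r x` count). With the nearest `q₀ ∈ Q x`: `‖F x - f' q₀‖ ≤ 3 C r x`, which gives the lower bound; edges from `x ∉ A` to `y ∈ A`: `r x ≤ dist x y`.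
(2) `r` is 1-Lipschitz. Edge `x, y ∉ A`, `Q x = Q y`, `D = dist x y`: if `r x ≤ 4 D` use (1) twice with `q₀` (`≤ 12 C D + C (10 D + 5 D)`). Otherwise `|a x q - a y q| ≤ 3 D`,
`|s x - s y| ≤ 3 k D`, so `∑ q, |a x q / s x - a y q / s y| ≤ 6 k D / r x`; `F x - F y = ∑ q, (a x q / s x - a y q / s y) • (f' q - f' q₀)` and `dist q q₀ ≤ 4 r x` whenever
`a x q ≠ 0` or `a y q ≠ 0`: `ρ x y ≤ 24 k C D`. -/

namespace Vale.Agent.P235.Us

theorem ue_sum {V E : Type} [NormedAddCommGroup E] [NormedSpace ℝ E] (Q : Finset V) (c : V → ℝ)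
    (v : V → E) {M : ℝ} (h : ∀ q ∈ Q, c q ≠ 0 → ‖v q‖ ≤ M) :
    ‖∑ q ∈ Q, c q • v q‖ ≤ (∑ q ∈ Q, |c q|) * M := by
  rw [Finset.sum_mul]
  refine (norm_sum_le _ _).trans (Finset.sum_le_sum fun q hq => ?_)
  rw [norm_smul, Real.norm_eq_abs]
  by_cases e : c q = 0
  · simp [e]
  · exact mul_le_mul_of_nonneg_left (h q hq e) (abs_nonneg _)

theorem ue_w {V : Type} (Q : Finset V) (a b : V → ℝ) (hb : ∀ q, 0 ≤ b q) {t D : ℝ} (ht : 0 < t)
    (h1 : t ≤ ∑ q ∈ Q, a q) (h2 : 0 < ∑ q ∈ Q, b q) (h3 : ∀ q, |a q - b q| ≤ D) :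
    (∑ q ∈ Q, |a q / (∑ q ∈ Q, a q) - b q / ∑ q ∈ Q, b q|) * t ≤ 2 * (Q.card * D) := by
  have e1 : ∑ q ∈ Q, |a q - b q| ≤ Q.card * D := by
    simpa using Finset.sum_le_card_nsmul Q _ D fun q _ => h3 q
  have e2 : |(∑ q ∈ Q, b q) - ∑ q ∈ Q, a q| ≤ Q.card * D := by
    rw [abs_sub_comm, ← Finset.sum_sub_distrib]
    exact (Finset.abs_sum_le_sum_abs _ _).trans e1
  have e5 : ∑ q ∈ Q, b q / ∑ q ∈ Q, b q = 1 := by rw [← Finset.sum_div, div_self h2.ne']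
  generalize ∑ q ∈ Q, a q = s at h1 e2 ⊢
  generalize ∑ q ∈ Q, b q = u at h2 e2 e5 ⊢
  have s0 : 0 < s := ht.trans_le h1
  have e3 : ∀ q, |a q / s - b q / u| * s ≤ |a q - b q| + b q / u * |u - s| := fun q => by
    have e : (a q / s - b q / u) * s = (a q - b q) + b q / u * (u - s) := by
      field_simp
      ring
    calc |a q / s - b q / u| * s = |(a q / s - b q / u) * s| := by rw [abs_mul, abs_of_pos s0]
      _ ≤ |a q - b q| + |b q / u * (u - s)| := e ▸ abs_add_le _ _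
      _ = _ := by rw [abs_mul, abs_of_nonneg (div_nonneg (hb q) h2.le)]
  have e4 : (∑ q ∈ Q, |a q / s - b q / u|) * s ≤ ∑ q ∈ Q, |a q - b q| + |u - s| := by
    rw [Finset.sum_mul]
    refine (Finset.sum_le_sum fun q _ => e3 q).trans_eq ?_
    rw [Finset.sum_add_distrib, ← Finset.sum_mul, e5, one_mul]
  have e6 := mul_le_mul_of_nonneg_left h1
    (Finset.sum_nonneg fun q (_ : q ∈ Q) => abs_nonneg (a q / s - b q / u))
  linarith

theorem ue_core {V E : Type} [PseudoMetricSpace V] [NormedAddCommGroup E] [NormedSpace ℝ E]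
    {G : SimpleGraph V} {A : Set V} {k : ℕ} {C : ℝ} (hC : 1 ≤ C) (f : V → E)
    (hf : ∀ x ∈ A, ∀ y ∈ A, dist x y ≤ ‖f x - f y‖ ∧ ‖f x - f y‖ ≤ C * dist x y)
    (Q : V → Finset V) (r : V → ℝ)
    (h1 : ∀ x, x ∉ A → (∀ q ∈ Q x, q ∈ A) ∧ (Q x).card ≤ k ∧ 0 < r x ∧ ∃ q ∈ Q x, dist x q = r x)
    (h2 : ∀ x, ∀ q ∈ A, r x ≤ dist x q) (h3 : ∀ x ∈ A, r x = 0)
    (h4 : ∀ x y, G.Adj x y → x ∉ A → y ∉ A → Q x = Q y) :
    ∃ F : V → E, (∀ x y, G.Adj x y → ‖F x - F y‖ ≤ 30 * (k + 1) * C * dist x y) ∧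
      ∀ x y, dist x y - (3 * C + 1) * (r x + r y) ≤ ‖F x - F y‖ := by
  classical
  have C0 : 0 ≤ C := zero_le_one.trans hC
  obtain ⟨a, ha⟩ : ∃ a : V → V → ℝ, ∀ x q, a x q = max 0 (2 * r x - dist x q) :=
    ⟨_, fun _ _ => rfl⟩
  have a0 : ∀ x q, 0 ≤ a x q := fun x q => ha x q ▸ le_max_left _ _
  have a1 : ∀ x q t, a x q / t ≠ 0 → dist x q < 2 * r x := fun x q t h => by
    by_contra c
    exact h (by rw [ha, max_eq_left (by linarith), zero_div])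
  have s1 : ∀ x ∉ A, r x ≤ ∑ q ∈ Q x, a x q := fun x hx => by
    obtain ⟨q, q1, q2⟩ := (h1 x hx).2.2.2
    refine le_trans ?_ (Finset.single_le_sum (f := a x) (fun q _ => a0 x q) q1)
    rw [ha]
    exact le_max_of_le_right (by linarith)
  have s0 : ∀ x ∉ A, 0 < ∑ q ∈ Q x, a x q := fun x hx => (h1 x hx).2.2.1.trans_le (s1 x hx)
  have s2 : ∀ x ∉ A, ∑ q ∈ Q x, a x q / ∑ q ∈ Q x, a x q = 1 := fun x hx => by
    rw [← Finset.sum_div, div_self (s0 x hx).ne']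
  obtain ⟨F, F1, F2⟩ : ∃ F : V → E, (∀ x ∈ A, F x = f x) ∧
      ∀ x ∉ A, F x = ∑ q ∈ Q x, (a x q / ∑ q ∈ Q x, a x q) • f q :=
    ⟨fun x => if x ∈ A then f x else ∑ q ∈ Q x, (a x q / ∑ q ∈ Q x, a x q) • f q,
      fun x hx => if_pos hx, fun x hx => if_neg hx⟩
  have F3 : ∀ x ∉ A, ∀ z : E, F x - z = ∑ q ∈ Q x, (a x q / ∑ q ∈ Q x, a x q) • (f q - z) :=
    fun x hx z => by
      simp only [smul_sub, Finset.sum_sub_distrib]
      rw [← Finset.sum_smul, s2 x hx, one_smul, F2 x hx]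
  have b1 : ∀ x ∉ A, ∀ y ∈ A, ‖F x - f y‖ ≤ C * (2 * r x + dist x y) := fun x hx y hy => by
    rw [F3 x hx]
    refine (ue_sum _ _ _ (M := C * (2 * r x + dist x y)) fun q hq hc =>
      ((hf q ((h1 x hx).1 q hq) y hy).2.trans (mul_le_mul_of_nonneg_left ?_ C0))).trans_eq ?_
    · linarith [a1 x q _ hc, dist_triangle_left q y x]
    · rw [Finset.sum_congr rfl fun q _ => abs_of_nonneg (div_nonneg (a0 x q) (s0 x hx).le),
        s2 x hx, one_mul]
  have near : ∀ x, ∃ q ∈ A, dist x q = r x ∧ ‖F x - f q‖ ≤ 3 * C * r x := fun x => by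
    by_cases hx : x ∈ A
    · exact ⟨x, hx, by rw [dist_self, h3 x hx], by simp [F1 x hx, h3 x hx]⟩
    · obtain ⟨q, q1, q2⟩ := (h1 x hx).2.2.2
      refine ⟨q, (h1 x hx).1 q q1, q2, (b1 x hx q ((h1 x hx).1 q q1)).trans_eq ?_⟩
      rw [q2]
      ring
  have lip : ∀ x y, r y ≤ r x + dist x y := fun x y => by
    obtain ⟨q, q1, q2, -⟩ := near x
    linarith [h2 y q q1, dist_triangle_left y q x]
  have big : ∀ (t D : ℝ), t ≤ 30 → 0 ≤ D → t * C * D ≤ 30 * (k + 1) * C * D := fun t D ht hD => by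
    have : (0 : ℝ) ≤ k := Nat.cast_nonneg k
    exact mul_le_mul_of_nonneg_right (mul_le_mul_of_nonneg_right (by linarith) C0) hD
  have mix : ∀ x ∉ A, ∀ y ∈ A, ‖F x - F y‖ ≤ 30 * (k + 1) * C * dist x y := fun x hx y hy => by
    rw [F1 y hy]
    refine (b1 x hx y hy).trans (le_trans ?_ (big 3 _ (by norm_num) dist_nonneg))
    nlinarith [h2 x y hy]
  refine ⟨F, fun x y e => ?_, fun x y => ?_⟩
  · by_cases hx : x ∈ A <;> by_cases hy : y ∈ A
    · rw [F1 x hx, F1 y hy]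
      exact (hf x hx y hy).2.trans (by simpa using big 1 _ (by norm_num) dist_nonneg)
    · rw [norm_sub_rev, dist_comm]
      exact mix y hy x hx
    · exact mix x hx y hy
    obtain ⟨q₀, q1, q2, q3⟩ := near x
    have l1 := lip x y
    have l2 := lip y x
    rw [dist_comm y x] at l2
    have D0 : 0 ≤ dist x y := dist_nonneg
    by_cases c : r x ≤ 4 * dist x y
    · have c1 := b1 y hy q₀ q1
      have c2 := dist_triangle_left y q₀ x
      have c3 := norm_sub_le_norm_sub_add_norm_sub (F x) (f q₀) (F y)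
      rw [norm_sub_rev (f q₀)] at c3
      refine le_trans ?_ (big 27 _ (by norm_num) D0)
      have c4 : C * (2 * r y + dist y q₀) ≤ C * (15 * dist x y) :=
        mul_le_mul_of_nonneg_left (by linarith) C0
      have c5 : C * r x ≤ C * (4 * dist x y) := mul_le_mul_of_nonneg_left c C0
      linarith
    · have c0 := not_le.1 c
      have eq := h4 x y e hx hy
      have c1 : F x - F y = ∑ q ∈ Q x,
          (a x q / (∑ q ∈ Q x, a x q) - a y q / ∑ q ∈ Q x, a y q) • (f q - f q₀) := by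
        simp only [sub_smul, Finset.sum_sub_distrib]
        rw [← F3 x hx, eq, ← F3 y hy, sub_sub_sub_cancel_right]
      have c2 := ue_w (Q x) (a x) (a y) (a0 y) (D := 3 * dist x y) (h1 x hx).2.2.1 (s1 x hx)
        (eq ▸ s0 y hy) fun q => by
          rw [ha, ha, max_comm, max_comm 0]
          refine (abs_max_sub_max_le_abs _ _ _).trans (abs_le.2 ⟨?_, ?_⟩)
          · linarith [dist_triangle x y q]
          · linarith [dist_triangle_left y q x]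
      rw [c1]
      refine (ue_sum _ _ _ (M := C * (4 * r x)) fun q hq hc =>
        (hf q ((h1 x hx).1 q hq) q₀ q1).2.trans (mul_le_mul_of_nonneg_left ?_ C0)).trans ?_
      · have c3 := dist_triangle_left q q₀ x
        by_cases c4 : a x q / ∑ q ∈ Q x, a x q = 0
        · have c5 := a1 y q (∑ q ∈ Q x, a y q) fun h => hc (by rw [c4, h, sub_zero])
          linarith [dist_triangle x y q]
        · linarith [a1 x q _ c4]
      · have c3 : ((Q x).card : ℝ) ≤ k := Nat.cast_le.2 (h1 x hx).2.1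
        have c4 : ((Q x).card : ℝ) * (3 * dist x y) ≤ k * (3 * dist x y) :=
          mul_le_mul_of_nonneg_right c3 (by linarith)
        have c5 := mul_le_mul_of_nonneg_left (c2.trans (mul_le_mul_of_nonneg_left c4 zero_le_two))
          C0
        have c6 : 0 ≤ C * dist x y := mul_nonneg C0 D0
        have c7 : 0 ≤ (k : ℝ) * (C * dist x y) := mul_nonneg (Nat.cast_nonneg k) c6
        nlinarith
  · obtain ⟨p, p1, p2, p3⟩ := near x
    obtain ⟨q, q1, q2, q3⟩ := near y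
    have c1 := (hf p p1 q q1).1
    have c2 := dist_triangle4 x p q y
    rw [dist_comm q y] at c2
    have c3 := norm_sub_le_norm_sub_add_norm_sub (f p) (F x) (f q)
    have c4 := norm_sub_le_norm_sub_add_norm_sub (F x) (F y) (f q)
    rw [norm_sub_rev (f p) (F x)] at c3
    linarith

theorem ext_part {V : Type} [PseudoMetricSpace V] [Fintype V] {G : SimpleGraph V} {A : Set V}
    {k : ℕ} {C : ℝ} (hC : 1 ≤ C) (hA : EmbedsL1 (fun x y : A => dist x.1 y.1) C)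
    (Q : V → Finset V) (r : V → ℝ)
    (h1 : ∀ x, x ∉ A → (∀ q ∈ Q x, q ∈ A) ∧ (Q x).card ≤ k ∧ 0 < r x ∧ ∃ q ∈ Q x, dist x q = r x)
    (h2 : ∀ x, ∀ q ∈ A, r x ≤ dist x q) (h3 : ∀ x ∈ A, r x = 0)
    (h4 : ∀ x y, G.Adj x y → x ∉ A → y ∉ A → Q x = Q y) :
    ∃ ρ : V → V → ℝ, EmbedsL1 ρ 1 ∧ (∀ x y, G.Adj x y → ρ x y ≤ 30 * (k + 1) * C * dist x y) ∧
      ∀ x y, dist x y - (3 * C + 1) * (r x + r y) ≤ ρ x y := by
  classical
  obtain ⟨Ω, m, μ, f, hf⟩ := hA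
  obtain ⟨F, F1, F2⟩ := ue_core (G := G) hC (fun q => if h : q ∈ A then f ⟨q, h⟩ else 0)
    (fun x hx y hy => by
      simp only [dif_pos hx, dif_pos hy]
      exact hf ⟨x, hx⟩ ⟨y, hy⟩) Q r h1 h2 h3 h4
  exact ⟨fun x y => ‖F x - F y‖, ⟨Ω, m, μ, F, fun x y => ⟨le_rfl, (one_mul _).ge⟩⟩, F1, F2⟩

end Vale.Agent.P235.Us
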