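import Vale.Agent.P235U.UDef
import Vale.Agent.P235Q.Asm
import Vale.Agent.P235S.STor

/-! Attachments and sums of embeddings. `att_near`: every walk from `x` to a point of `A` passes through an attachment `q` of the component of `x` with `spDist x q ≤` its length
(induction on the walk); minimise over the finite nonempty set of attachments (`Set.exists_min_image`), `le_spDist`. `emb_comb`: `Ap.toCuts` for both, `Ap.ofFamily` with the family
`η ↦ (w₁ η + t * w₂ η) * if η x then 1 else 0` (the sum of the absolute differences is `cs w₁ x y + t * cs w₂ x y`). -/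

namespace Vale.Agent.P235.Us

variable {V : Type} {G : SimpleGraph V} {ℓ : Sym2 V → ℝ}

theorem att_near [Fintype V] (hG : G.Connected) (hℓ : ∀ e ∈ G.edgeSet, 0 < ℓ e) {A : Set V}
    (hA : A.Nonempty) {x : V} (hx : x ∉ A) :
    ∃ q ∈ att G A ((G.induce Aᶜ).connectedComponentMk ⟨x, hx⟩),
      ∀ q' ∈ A, spDist G ℓ x q ≤ spDist G ℓ x q' := by
  let _ := spMetric hG hℓ
  have key : ∀ {x y : V} (p : G.Walk x y) (hx : x ∉ A), y ∈ A →
      ∃ q ∈ att G A ((G.induce Aᶜ).connectedComponentMk ⟨x, hx⟩),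
        dist x q ≤ (p.edges.map ℓ).sum := by
    intro x y p
    induction p with
    | nil => exact fun hx hy => (hx hy).elim
    | @cons u v w h p ih =>
      intro hx hy
      have e : dist u v ≤ ℓ s(u, v) :=
        (spDist_le hℓ (SimpleGraph.Walk.cons h SimpleGraph.Walk.nil)).trans_eq (by simp)
      simp only [SimpleGraph.Walk.edges_cons, List.map_cons, List.sum_cons]
      by_cases hv : v ∈ A
      · exact ⟨v, ⟨hv, ⟨u, hx⟩, rfl, h⟩, by linarith [len_nonneg hℓ p]⟩
      · obtain ⟨q, q1, q2⟩ := ih hv hy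
        have e2 : (G.induce Aᶜ).connectedComponentMk ⟨u, hx⟩ =
            (G.induce Aᶜ).connectedComponentMk ⟨v, hv⟩ :=
          SimpleGraph.ConnectedComponent.sound (SimpleGraph.Adj.reachable (by exact h))
        exact ⟨q, e2 ▸ q1, by linarith [dist_triangle u v q]⟩
  obtain ⟨a, ha⟩ := hA
  obtain ⟨p₀⟩ := hG x a
  obtain ⟨q₀, hq₀, -⟩ := key p₀ hx ha
  obtain ⟨q, q1, q2⟩ := Set.exists_min_image _ (dist x) (Set.toFinite _) ⟨q₀, hq₀⟩
  refine ⟨q, q1, fun q' hq' => le_spDist hG fun p => ?_⟩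
  obtain ⟨z, z1, z2⟩ := key p hx hq'
  exact (q2 z z1).trans z2

theorem emb_comb [Fintype V] {d ρ m : V → V → ℝ} {K C t : ℝ} (h1 : EmbedsL1 ρ 1)
    (h2 : EmbedsL1 m C) (ht : 0 ≤ t) (hC : 0 ≤ C) (h3 : ∀ x y, d x y ≤ ρ x y + t * m x y)
    (h4 : ∀ x y, ρ x y ≤ K * d x y) (h5 : ∀ x y, m x y ≤ d x y) : EmbedsL1 d (K + t * C) := by
  classical
  obtain ⟨w, w0, w1⟩ := Ap.toCuts h1
  obtain ⟨u, u0, u1⟩ := Ap.toCuts h2
  refine Ap.ofFamily (fun x (η : V → Bool) => (w η + t * u η) * if η x then 1 else 0)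
    fun x y => ?_
  have e : ∑ η : V → Bool, |((w η + t * u η) * if η x then 1 else 0) -
      (w η + t * u η) * if η y then 1 else 0| = Ap.cs w x y + t * Ap.cs u x y := by
    unfold Ap.cs
    rw [Finset.mul_sum, ← Finset.sum_add_distrib]
    refine Finset.sum_congr (by ext; simp) fun η _ => ?_
    have := add_nonneg (w0 η) (mul_nonneg ht (u0 η))
    cases hx : η x <;> cases hy : η y <;> simp [Ap.sp, hx, hy, abs_of_nonneg this]
    rw [← neg_add, abs_neg, add_comm, abs_of_nonneg this]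
  rw [e]
  have a1 := w1 x y
  have a2 := mul_le_mul_of_nonneg_left (u1 x y).1 ht
  have a3 := mul_le_mul_of_nonneg_left ((u1 x y).2.trans
    (mul_le_mul_of_nonneg_left (h5 x y) hC)) ht
  exact ⟨by linarith [h3 x y, a1.1], by nlinarith [h4 x y, a1.2]⟩

end Vale.Agent.P235.Us
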