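import Vale.Agent.P235U.UTor
import Vale.Agent.P235U.UCone
import Vale.Agent.P235U.UExt
import Vale.Agent.P235U.UNb
import Vale.Agent.P235T.TMain

/-! Sums of depth one keep bounded distortion. -/

namespace Vale.Agent.P235.Us

theorem emb_tri {V : Type} {ρ : V → V → ℝ} (h : EmbedsL1 ρ 1) :
    (∀ x, ρ x x = 0) ∧ ∀ x y z, ρ x z ≤ ρ x y + ρ y z := by
  obtain ⟨Ω, m, μ, f, hf⟩ := h
  have e : ∀ x y, ρ x y = ‖f x - f y‖ := fun x y =>
    le_antisymm (hf x y).1 (by simpa using (hf x y).2)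
  exact ⟨fun x => by simp [e], fun x y z => by
    simp only [e]; exact norm_sub_le_norm_sub_add_norm_sub _ _ _⟩

theorem starSum_bdd {P : ∀ W : Type, SimpleGraph W → Prop} (h : Ap.Bdd P) (k : ℕ) :
    Ap.Bdd fun _ G => StarSum G k P := by
  classical
  obtain ⟨C₀, h⟩ := h
  have hC : 3 ≤ max C₀ 3 := le_max_right _ _
  have hC0 : C₀ ≤ max C₀ 3 := le_max_left _ _
  generalize max C₀ 3 = C at hC hC0
  refine ⟨30 * (k + 1) * C + (3 * C + 1) * (240 * C), ?_⟩
  rintro V _ G hG ⟨A, hA, hP, hc⟩ ℓ hl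
  obtain ⟨t1, t2, t3⟩ := tors_dist hG hl A
  have hcomp : ∀ v, v ∉ A →
      EmbedsL1 (spDist (G.induce (Ap.comp G A v)) (Ap.resL ℓ (Ap.comp G A v))) C := fun v hv => by
    let φ := Ap.compIso G A (v := v) hv
    have := Ap.EmbedsL1.comap (h _ _ (SimpleGraph.ConnectedComponent.connected_toSimpleGraph _)
      (hc _).1 (fun e => Ap.resL ℓ _ (e.map φ))
      fun e he => Ap.resL_pos hl _ _ (φ.map_mem_edgeSet_iff.2 he)) φ.symm
    simp only [Ap.spDist_iso, RelIso.apply_symm_apply] at this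
    exact Ap.emb_mono (Ap.comp_conn hv) (Ap.resL_pos hl _) hC0 this
  have : Nonempty A := hA.to_subtype
  have hT := Ap.emb_mono ⟨t1⟩ t2 hC0 (h _ _ ⟨t1⟩ hP _ t2)
  have e0 : spDist (tors G A) (Ts.tl G ℓ A) = fun x y : A => spDist G ℓ x y :=
    funext fun x => funext fun y => t3 x y
  rw [e0] at hT
  have hn := fun x (hx : x ∉ A) => att_near hG hl hA hx
  have hpos := Pl.spDist_pos hG hl
  let _ := spMetric hG hl
  have hd : ∀ x y, spDist G ℓ x y = dist x y := fun _ _ => rfl
  obtain ⟨r, r1, r2⟩ : ∃ r : V → ℝ, (∀ x, ∃ q ∈ A, dist x q = r x) ∧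
      ∀ x, ∀ q ∈ A, r x ≤ dist x q := by
    choose q q1 q2 using fun x => Set.exists_min_image A (dist x) (Set.toFinite _) hA
    exact ⟨fun x => dist x (q x), fun x => ⟨q x, q1 x, rfl⟩, q2⟩
  have r0 : ∀ x, 0 ≤ r x := fun x => by
    obtain ⟨q, -, e⟩ := r1 x
    rw [← e]; exact dist_nonneg
  have hm := cone_part hG hl A hC hcomp r1 r2
  obtain ⟨ρ, k1, k2, k3⟩ := ext_part (G := G) (k := k) (by linarith) hT
    (fun x => if hx : x ∉ A then
      (Set.toFinite (att G A ((G.induce Aᶜ).connectedComponentMk ⟨x, hx⟩))).toFinset else ∅) r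
    (fun x hx => by
      rw [dif_pos hx]
      obtain ⟨q, q1, q2⟩ := hn x hx
      obtain ⟨q', a, b⟩ := r1 x
      refine ⟨fun q hq => ((Set.Finite.mem_toFinset _).1 hq).1, ?_, ?_, q,
        (Set.Finite.mem_toFinset _).2 q1, le_antisymm ((q2 q' a).trans_eq b) (r2 x q q1.1)⟩
      · rw [← Set.ncard_eq_toFinset_card]
        exact (hc _).2
      · rw [← b]
        exact hpos x q' fun e => hx (e ▸ a))
    r2 (fun x hx => le_antisymm ((r2 x x hx).trans_eq (dist_self x)) (r0 x))
    fun x y hxy hx hy => by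
      have e : (G.induce Aᶜ).connectedComponentMk ⟨x, hx⟩ =
          (G.induce Aᶜ).connectedComponentMk ⟨y, hy⟩ :=
        SimpleGraph.ConnectedComponent.sound (SimpleGraph.Adj.reachable (by exact hxy))
      simp only [dif_pos hx, dif_pos hy, e]
  obtain ⟨s1, s2⟩ := emb_tri k1
  have hK : 0 < 30 * ((k : ℝ) + 1) * C := by positivity
  refine emb_comb k1 hm (by linarith) (by linarith) (fun x y => ?_) (fun x y => ?_)
    fun x y => min_le_left _ _
  · have a := k3 x y
    have b : 0 ≤ ρ x y := by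
      obtain ⟨Ω, m, μ, f, hf⟩ := k1
      exact (norm_nonneg _).trans (by simpa using (hf x y).2)
    rw [hd]
    rcases le_total (dist x y) (r x + r y) with c | c
    · rw [min_eq_left c]
      nlinarith [dist_nonneg (x := x) (y := y)]
    · rw [min_eq_right c]
      linarith
  · have := Tw.lip_le hG (L := ℓ) (F := fun z => ρ x z / (30 * (k + 1) * C)) (fun z z' hz => by
      rw [← sub_div, div_le_iff₀' hK]
      have a := k2 z z' hz
      have b : dist z z' ≤ ℓ s(z, z') :=
        (spDist_le hl (SimpleGraph.Walk.cons hz SimpleGraph.Walk.nil)).trans_eq (by simp)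
      have c := mul_le_mul_of_nonneg_left b hK.le
      linarith [s2 x z z']) x y
    rwa [s1, zero_div, sub_zero, div_le_iff₀' hK] at this

theorem rounds_bdd (g k n : ℕ) : Ap.Bdd (Rounds g k n) := by
  induction n with
  | zero => exact Ts.built_bdd g k 0
  | succ n ih => exact ih.or ((Ts.sumOf_bdd ih k).or (starSum_bdd ih k))

end Vale.Agent.P235.Us
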