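import Vale.Agent.P235U.UDef
import Vale.Agent.P235Q.Asm
import Vale.Agent.P235S.STor

/-! The metric of the torso of `A`; adapt `torso_dist` (P235S/STor.lean, helper lemmas `tor_*`). Torso edges have length `d`, so `d ≤` length of a torso walk (triangle inequality,
`spMetric`). Converse: induction on a walk `p` of `G` from `x` to `y ∈ A`: if `x ∈ A` there is a torso walk from `x` to `y` of length `≤ len p`; if `x ∉ A` and
`q ∈ att G A ((G.induce Aᶜ).connectedComponentMk ⟨x, _⟩)` there is a torso walk from `q` to `y` of length `≤ d q x + len p` (adjacent vertices outside `A` have the same component;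
two attachments of a component are equal or adjacent in the torso). `Pl.spDist_pos` gives positivity. -/

namespace Vale.Agent.P235.Us

variable {V : Type} {G : SimpleGraph V} {ℓ : Sym2 V → ℝ}

/-- A short walk in the torso. -/
def utor_W (G : SimpleGraph V) (ℓ : Sym2 V → ℝ) (A : Set V) (x y : A) (c : ℝ) : Prop :=
  ∃ w : (tors G A).Walk x y, (w.edges.map (Ts.tl G ℓ A)).sum ≤ c

theorem utor_mono {A : Set V} {x y : A} {c c' : ℝ} (h : utor_W G ℓ A x y c) (hc : c ≤ c') :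
    utor_W G ℓ A x y c' := h.imp fun _ k => k.trans hc

theorem utor_hop (hG : G.Connected) (hℓ : ∀ e ∈ G.edgeSet, 0 < ℓ e) {A : Set V} {q r y : A}
    {c : ℝ} (h : G.Adj q.1 r.1 ∨ ∃ c, q.1 ∈ att G A c ∧ r.1 ∈ att G A c)
    (hw : utor_W G ℓ A r y c) : utor_W G ℓ A q y (spDist G ℓ q r + c) := by
  by_cases e : q = r
  · subst e
    exact utor_mono hw (le_add_of_nonneg_left (le_spDist hG fun p => len_nonneg hℓ p))
  · obtain ⟨w, hw⟩ := hw
    have ha : (tors G A).Adj q r := (SimpleGraph.fromRel_adj _ _ _).2 ⟨e, Or.inl h⟩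
    refine ⟨.cons ha w, ?_⟩
    rw [SimpleGraph.Walk.edges_cons, List.map_cons, List.sum_cons, Ts.tor_tl hG hℓ]
    exact add_le_add_right hw _

theorem utor_att {A : Set V} {x v : V} (hx : x ∈ Aᶜ) (hv : v ∈ A) (h : G.Adj x v) :
    v ∈ att G A ((G.induce Aᶜ).connectedComponentMk ⟨x, hx⟩) :=
  ⟨hv, ⟨x, hx⟩, rfl, h⟩

theorem utor_eq {A : Set V} {x v : V} (hx : x ∈ Aᶜ) (hv : v ∈ Aᶜ) (h : G.Adj x v) :
    (G.induce Aᶜ).connectedComponentMk ⟨x, hx⟩ = (G.induce Aᶜ).connectedComponentMk ⟨v, hv⟩ :=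
  SimpleGraph.ConnectedComponent.connectedComponentMk_eq_of_adj h

theorem utor_walk (hG : G.Connected) (hℓ : ∀ e ∈ G.edgeSet, 0 < ℓ e) {A : Set V} {x y : V}
    (p : G.Walk x y) (hy : y ∈ A) :
    (∀ hx : x ∈ A, utor_W G ℓ A ⟨x, hx⟩ ⟨y, hy⟩ (p.edges.map ℓ).sum) ∧
      (∀ hx : x ∈ Aᶜ, ∀ q : A, q.1 ∈ att G A ((G.induce Aᶜ).connectedComponentMk ⟨x, hx⟩) →
        utor_W G ℓ A q ⟨y, hy⟩ (spDist G ℓ q x + (p.edges.map ℓ).sum)) := by
  induction p with
  | nil => exact ⟨fun _ => ⟨.nil, by simp⟩, fun h => absurd hy h⟩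
  | @cons x v y h p ih =>
    obtain ⟨i1, i2⟩ := ih hy
    have k1 : spDist G ℓ x v ≤ ℓ s(x, v) := by simpa using spDist_le hℓ (.cons h .nil)
    rw [SimpleGraph.Walk.edges_cons, List.map_cons, List.sum_cons]
    refine ⟨fun hx => utor_mono ?_ (add_le_add_left k1 _), fun hx q hq => ?_⟩
    · by_cases hv : v ∈ A
      · exact utor_hop hG hℓ (q := ⟨x, hx⟩) (r := ⟨v, hv⟩) (Or.inl h) (i1 hv)
      · exact i2 hv ⟨x, hx⟩ (utor_att hv hx h.symm)
    · have k2 : utor_W G ℓ A q ⟨y, hy⟩ (spDist G ℓ q v + (p.edges.map ℓ).sum) := by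
        by_cases hv : v ∈ A
        · exact utor_hop hG hℓ (r := ⟨v, hv⟩) (Or.inr ⟨_, hq, utor_att hx hv h⟩) (i1 hv)
        · exact i2 hv q (utor_eq hx hv h ▸ hq)
      refine utor_mono k2 ?_
      linarith [Ts.tor_tri hG hℓ q x v]

theorem utor_low (hG : G.Connected) (hℓ : ∀ e ∈ G.edgeSet, 0 < ℓ e) {A : Set V} {x y : A}
    (w : (tors G A).Walk x y) : spDist G ℓ x y ≤ (w.edges.map (Ts.tl G ℓ A)).sum := by
  induction w with
  | @nil x => simpa using spDist_le hℓ (SimpleGraph.Walk.nil : G.Walk x x)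
  | @cons x v y h w ih =>
    rw [SimpleGraph.Walk.edges_cons, List.map_cons, List.sum_cons, Ts.tor_tl hG hℓ]
    exact (Ts.tor_tri hG hℓ x v y).trans (add_le_add_right ih _)

theorem tors_dist [Fintype V] (hG : G.Connected) (hℓ : ∀ e ∈ G.edgeSet, 0 < ℓ e) (A : Set V) :
    (tors G A).Preconnected ∧ (∀ e ∈ (tors G A).edgeSet, 0 < Ts.tl G ℓ A e) ∧
      ∀ x y : A, spDist (tors G A) (Ts.tl G ℓ A) x y = spDist G ℓ x y := by
  have hW : ∀ (x y : A) (p : G.Walk x y), utor_W G ℓ A x y (p.edges.map ℓ).sum :=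
    fun x y p => (utor_walk hG hℓ p y.2).1 x.2
  have hc : (tors G A).Preconnected := fun x y => by
    obtain ⟨p⟩ := hG x y
    obtain ⟨w, -⟩ := hW x y p
    exact ⟨w⟩
  have hp : ∀ e ∈ (tors G A).edgeSet, 0 < Ts.tl G ℓ A e := fun e he => by
    induction e using Sym2.ind with
    | _ x y =>
      rw [Ts.tor_tl hG hℓ]
      exact Pl.spDist_pos hG hℓ _ _ fun k => ((tors G A).ne_of_adj he) (Subtype.ext k)
  refine ⟨hc, hp, fun x y => le_antisymm (le_spDist hG fun p => ?_) (le_csInf ?_ ?_)⟩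
  · obtain ⟨w, hw⟩ := hW x y p
    exact (spDist_le hp w).trans hw
  · obtain ⟨w⟩ := hc x y
    exact ⟨_, w, rfl⟩
  · rintro _ ⟨w, rfl⟩
    exact utor_low hG hℓ w

end Vale.Agent.P235.Us
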