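import Vale.Agent.P235U.UCone
import Vale.Agent.P235U.UNb
import Vale.Agent.P235U.UExt
import Vale.Agent.P235U.UTor
import Vale.Agent.P235T.TMain

/-! Sums of depth one keep bounded distortion. -/

namespace Vale.Agent.P235.Us

theorem ub_star {P : ∀ W : Type, SimpleGraph W → Prop} (h : Ap.Bdd P) (k : ℕ) :
    Ap.Bdd fun _ G => StarSum G k P := by
  classical
  obtain ⟨C₀, h⟩ := h
  obtain ⟨C, hC, h⟩ : ∃ C : ℝ, 3 ≤ C ∧ ∀ (V : Type) [Fintype V] (G : SimpleGraph V),
      G.Connected → P V G → ∀ ℓ : Sym2 V → ℝ, (∀ e ∈ G.edgeSet, 0 < ℓ e) →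
        EmbedsL1 (spDist G ℓ) C :=
    ⟨max C₀ 3, le_max_right _ _, fun V _ G hG hp ℓ hl =>
      Ap.emb_mono hG hl (le_max_left _ _) (h V G hG hp ℓ hl)⟩
  refine ⟨30 * (k + 1) * C + (3 * C + 1) * (240 * C), ?_⟩
  rintro V _ G hG ⟨A, hA, hP, hc⟩ ℓ hℓ
  obtain ⟨t1, t2, t3⟩ := tors_dist hG hℓ A
  have : Nonempty A := hA.to_subtype
  have e1 := h A _ ⟨t1⟩ hP _ t2
  rw [show spDist (tors G A) (Ts.tl G ℓ A) = fun x y : A => spDist G ℓ x y from
    funext fun x => funext fun y => t3 x y] at e1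
  choose q q1 q2 using fun x (hx : x ∉ A) => att_near hG hℓ hA hx
  have pd := Pl.spDist_pos hG hℓ
  letI := spMetric hG hℓ
  have hd : ∀ x y, spDist G ℓ x y = dist x y := fun _ _ => rfl
  obtain ⟨r, r1, r2⟩ : ∃ r : V → ℝ, (∀ x ∈ A, r x = 0) ∧ ∀ x hx, r x = dist x (q x hx) :=
    ⟨fun x => if hx : x ∈ A then 0 else dist x (q x hx), fun x hx => dif_pos hx,
      fun x hx => dif_neg hx⟩
  have r3 : ∀ x, ∀ z ∈ A, r x ≤ dist x z := fun x z hz => by
    by_cases hx : x ∈ A
    · rw [r1 x hx]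
      exact dist_nonneg
    · rw [r2 x hx]
      exact q2 x hx z hz
  obtain ⟨ρ, p1, p2, p3⟩ := ext_part (G := G) (k := k) (by linarith) e1
    (fun x => if hx : x ∈ A then ∅ else
      (Set.toFinite (att G A ((G.induce Aᶜ).connectedComponentMk ⟨x, hx⟩))).toFinset) r
    (fun x hx => by
      rw [dif_neg hx]
      refine ⟨fun z hz => ((Set.Finite.mem_toFinset _).1 hz).1, ?_, ?_, q x hx,
        (Set.Finite.mem_toFinset _).2 (q1 x hx), (r2 x hx).symm⟩
      · rw [← Set.ncard_eq_toFinset_card]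
        exact (hc _).2
      · rw [r2 x hx]
        exact pd _ _ fun e => hx (e ▸ (q1 x hx).1))
    r3 r1 fun x y e hx hy => by
      rw [dif_neg hx, dif_neg hy]
      have e2 : (G.induce Aᶜ).connectedComponentMk ⟨x, hx⟩ =
          (G.induce Aᶜ).connectedComponentMk ⟨y, hy⟩ :=
        SimpleGraph.ConnectedComponent.connectedComponentMk_eq_of_adj e
      simp only [e2]
  have K0 : (0 : ℝ) < 30 * (k + 1) * C := by positivity
  have n1 : ∀ x y, 0 ≤ ρ x y ∧ ρ x x = 0 ∧ ∀ z, ρ x z ≤ ρ x y + ρ y z := by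
    obtain ⟨Ω, _, μ, f, hf⟩ := p1
    have e : ∀ x y, ρ x y = ‖f x - f y‖ := fun x y =>
      le_antisymm (hf x y).1 (by simpa using (hf x y).2)
    refine fun x y => ⟨e x y ▸ norm_nonneg _, by rw [e, sub_self, norm_zero], fun z => ?_⟩
    rw [e, e, e]
    exact norm_sub_le_norm_sub_add_norm_sub _ _ _
  have c1 := cone_part hG hℓ A hC (r := r) (fun v hv => by
      let φ := Ap.compIso G A (v := v) hv
      have := Ap.EmbedsL1.comap (h _ _
        (SimpleGraph.ConnectedComponent.connected_toSimpleGraph _) (hc _).1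
        (fun e => Ap.resL ℓ _ (e.map φ))
        fun e he => Ap.resL_pos hℓ _ _ (φ.map_mem_edgeSet_iff.2 he)) φ.symm
      simpa only [Ap.spDist_iso, RelIso.apply_symm_apply] using this)
    (fun x => by
      by_cases hx : x ∈ A
      · exact ⟨x, hx, by rw [hd, dist_self, r1 x hx]⟩
      · exact ⟨q x hx, (q1 x hx).1, (r2 x hx).symm⟩) r3
  refine emb_comb p1 c1 (by linarith) (by linarith) (fun x y => ?_) (fun x y => ?_)
    fun x y => min_le_left _ _
  · have c2 := p3 x y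
    have c3 : 0 ≤ dist x y := dist_nonneg
    rw [hd]
    rcases min_choice (dist x y) (r x + r y) with e | e <;> rw [e]
    · nlinarith [(n1 x y).1]
    · linarith
  · have c2 := Tw.lip_le hG (L := ℓ) (F := fun z => ρ x z / (30 * (k + 1) * C)) (fun z z' hz => by
      have c3 : spDist G ℓ z z' ≤ ℓ s(z, z') := by simpa using spDist_le hℓ hz.toWalk
      rw [hd] at c3
      show ρ x z' / _ - ρ x z / _ ≤ _
      rw [← sub_div, div_le_iff₀' K0]
      linarith [p2 z z' hz, (n1 x z).2.2 z', mul_le_mul_of_nonneg_left c3 K0.le]) x y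
    rwa [(n1 x x).2.1, zero_div, sub_zero, div_le_iff₀' K0] at c2

theorem ub_rounds (g k n : ℕ) : Ap.Bdd (Rounds g k n) := by
  induction n with
  | zero => exact Ts.built_bdd g k 0
  | succ n ih => exact ih.or ((Ts.sumOf_bdd ih k).or (ub_star ih k))

end Vale.Agent.P235.Us
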